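import Vale.Agent.P183.R2.H668.KW.Spec

set_option autoImplicit false

/-!
Row A of the Kleitman-Winston bound: few possible neighbourhoods of a vertex of least degree.
-/

namespace Vale.Agent.P183.R2.H764

open Finset Vale.Agent.P183.R2.H668.KW

theorem choose_le_exp (R j d : ℕ) (a : ℝ) (ha : 0 < a) (ha1 : a ≤ 1) (hj : j ≤ d) :
    (R.choose j : ℝ) ≤ Real.exp (a * R) * (1 / a) ^ d := by
  have h1 : (R.choose j : ℝ) * a ^ j ≤ (a + 1) ^ R := by
    by_cases hjR : j ≤ R
    · rw [add_pow]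
      have := Finset.single_le_sum (f := fun m => a ^ m * 1 ^ (R - m) * (R.choose m : ℝ))
        (s := range (R + 1)) (fun m _ => by positivity) (a := j) (by simp; omega)
      simp only [one_pow, mul_one] at this ⊢
      linarith
    · rw [Nat.choose_eq_zero_of_lt (by omega)]
      simp only [Nat.cast_zero, zero_mul]
      positivity
  have h2 : (a + 1) ^ R ≤ Real.exp (a * R) := by
    have := pow_le_pow_left₀ (by positivity) (Real.add_one_le_exp a) R
    rwa [← Real.exp_nat_mul, mul_comm (R : ℝ) a] at this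
  have h3 : (R.choose j : ℝ) ≤ Real.exp (a * R) * (1 / a) ^ j := by
    rw [one_div, inv_pow, ← div_eq_mul_inv, le_div_iff₀ (by positivity)]
    linarith
  refine h3.trans ?_
  have h4 : (1 / a) ^ j ≤ (1 / a) ^ d := by
    apply pow_le_pow_right₀ _ hj
    rw [le_div_iff₀ ha]; linarith
  exact mul_le_mul_of_nonneg_left h4 (Real.exp_pos _).le

theorem log_bounds (t : ℕ) (ht : 2 ≤ t) :
    0 ≤ Real.log t ∧ Real.log t ≤ 2 * Real.sqrt t ∧ Real.log t ^ 4 ≤ 4096 * Real.sqrt t := by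
  have ht0 : (0 : ℝ) < t := by positivity
  have ht1 : (1 : ℝ) ≤ t := by exact_mod_cast (by omega : 1 ≤ t)
  have h0 := Real.log_nonneg ht1
  refine ⟨h0, ?_, ?_⟩
  · have := Real.log_le_rpow_div ht0.le (show (0 : ℝ) < 1 / 2 by norm_num)
    rw [← Real.sqrt_eq_rpow] at this
    linarith
  · have h := Real.log_le_rpow_div ht0.le (show (0 : ℝ) < 1 / 8 by norm_num)
    have h8 := pow_le_pow_left₀ h0 h 4
    refine h8.trans (le_of_eq ?_)
    rw [div_pow, ← Real.rpow_natCast ((t : ℝ) ^ (1 / 8 : ℝ)) 4, ← Real.rpow_mul ht0.le,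
      Real.sqrt_eq_rpow]
    norm_num
    ring

theorem E_bound (t δ R : ℕ) (ht : 2 ≤ t) (hδ : 1 ≤ δ) (hδ2 : δ ^ 2 ≤ 2 * t)
    (hR2' : (δ : ℝ) * R ≤ 2 * t) :
    Real.exp ((δ : ℝ) ^ 2 / (2 * t) * R) * (1 / ((δ : ℝ) ^ 2 / (2 * t))) ^ (δ + 1) ≤
      Real.exp (10 * Real.sqrt t) := by
  have ht0 : (0 : ℝ) < t := by positivity
  have hδ0 : (0 : ℝ) < δ := by positivity
  have hδ2' : (δ : ℝ) ^ 2 ≤ 2 * t := by exact_mod_cast hδ2
  set s0 := Real.sqrt t with hs0
  have hs00 : 0 < s0 := Real.sqrt_pos.2 ht0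
  have hs0sq : s0 ^ 2 = t := Real.sq_sqrt ht0.le
  set β : ℝ := (δ : ℝ) ^ 2 / (2 * t) with hβ
  have hβ0 : 0 < β := by positivity
  have hβ1 : β ≤ 1 := by rw [hβ, div_le_one (by positivity)]; exact hδ2'
  have h1 : β * R ≤ 2 * s0 := by
    have h2 : β * R ≤ δ := by
      rw [hβ, div_mul_eq_mul_div, div_le_iff₀ (by positivity)]
      calc (δ : ℝ) ^ 2 * R = δ * (δ * R) := by ring
        _ ≤ δ * (2 * t) := mul_le_mul_of_nonneg_left hR2' hδ0.le
    have h3 : (δ : ℝ) ≤ 2 * s0 := by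
      apply le_of_abs_le; rw [show (2 * s0 : ℝ) = |2 * s0| from (abs_of_pos (by positivity)).symm]; rw [← sq_le_sq]
      nlinarith
    linarith
  have h4 : (1 / β) ^ (δ + 1) ≤ Real.exp (8 * s0) := by
    have hb1 : 1 ≤ 1 / β := by rw [le_div_iff₀ hβ0]; linarith
    set y : ℝ := 2 * s0 / δ with hy
    have hy0 : 0 < y := by positivity
    have h5 : 1 / β ≤ y ^ 2 := by
      rw [hβ, hy, one_div_div, div_pow, div_le_div_iff_of_pos_right (by positivity)]
      nlinarith
    have h6 : y ^ 2 ≤ Real.exp (2 * y) := by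
      have : y ≤ Real.exp y := by have := Real.add_one_le_exp y; linarith
      have := pow_le_pow_left₀ hy0.le this 2
      rw [← Real.exp_nat_mul] at this
      exact_mod_cast this
    have h7 : ((2 * δ : ℕ) : ℝ) * (2 * y) = 8 * s0 := by
      rw [hy]
      push_cast
      field_simp
      ring
    calc (1 / β) ^ (δ + 1) ≤ (1 / β) ^ (2 * δ) :=
          pow_le_pow_right₀ hb1 (by omega)
      _ ≤ (Real.exp (2 * y)) ^ (2 * δ) :=
          pow_le_pow_left₀ (by positivity) (h5.trans h6) _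
      _ = Real.exp (8 * s0) := by
          rw [← Real.exp_nat_mul, h7]
  calc _ ≤ Real.exp (2 * s0) * Real.exp (8 * s0) :=
        mul_le_mul (Real.exp_le_exp.2 h1) h4 (by positivity) (Real.exp_pos _).le
    _ = _ := by rw [← Real.exp_add]; congr 1; ring

theorem num (t δ : ℕ) (ht : 2 ≤ t) (hδ : 1 ≤ δ) (hδ2 : δ ^ 2 ≤ 2 * t) (hδt : δ ≤ t)
    (hl : Real.sqrt t < δ * Real.log t) :
    ∃ q : ℕ, (1 - (δ : ℝ) ^ 2 / (2 * t)) ^ q * t ≤ ((2 * t / δ : ℕ) : ℝ) ∧
      ((∑ s ∈ range (q + 1), t.choose s * (2 * t / δ).choose (δ + 1 - s) : ℕ) : ℝ) ≤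
        Real.exp (16400 * Real.sqrt t) := by
  have ht0 : (0 : ℝ) < t := by positivity
  have hδ0 : (0 : ℝ) < δ := by positivity
  have hδ1 : (1 : ℝ) ≤ δ := by exact_mod_cast hδ
  have hδ2' : (δ : ℝ) ^ 2 ≤ 2 * t := by exact_mod_cast hδ2
  have hδt' : (δ : ℝ) ≤ t := by exact_mod_cast hδt
  obtain ⟨hl0, hl2, hl4⟩ := log_bounds t ht
  set l := Real.log t with hldef
  set s0 := Real.sqrt t with hs0
  have hs00 : 0 < s0 := Real.sqrt_pos.2 ht0
  have hs0sq : s0 ^ 2 = t := Real.sq_sqrt ht0.le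
  set β : ℝ := (δ : ℝ) ^ 2 / (2 * t) with hβ
  have hβ0 : 0 < β := by positivity
  have hβ1 : β ≤ 1 := by rw [hβ, div_le_one (by positivity)]; exact hδ2'
  set R : ℕ := 2 * t / δ with hR
  have hRmod : δ * R + (2 * t) % δ = 2 * t := Nat.div_add_mod _ _
  have hRlt : (2 * t) % δ < δ := Nat.mod_lt _ hδ
  have hR1 : t ≤ δ * R := by omega
  have hR1' : (t : ℝ) ≤ δ * R := by exact_mod_cast hR1
  have hR2' : (δ : ℝ) * R ≤ 2 * t := by exact_mod_cast (by omega : δ * R ≤ 2 * t)
  set q : ℕ := ⌈Real.log δ / β⌉₊ with hq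
  have hlogδ : 0 ≤ Real.log δ := Real.log_nonneg hδ1
  have hlogδl : Real.log δ ≤ l := Real.log_le_log hδ0 hδt'
  have hqge : Real.log δ / β ≤ q := Nat.le_ceil _
  have hqlt : (q : ℝ) < Real.log δ / β + 1 := Nat.ceil_lt_add_one (by positivity)
  have hinv : t ≤ (δ : ℝ) ^ 2 * l ^ 2 := by
    have := pow_le_pow_left₀ hs00.le hl.le 2
    rw [hs0sq] at this
    nlinarith
  have hq3 : (q : ℝ) ≤ 2 * l ^ 3 + 1 := by
    have h1 : Real.log δ / β ≤ 2 * l ^ 3 := by
      rw [div_le_iff₀ hβ0]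
      have h2 : 1 ≤ 2 * l ^ 2 * β := by
        rw [hβ]
        rw [mul_div_assoc', le_div_iff₀ (by positivity)]
        nlinarith
      calc Real.log δ ≤ l := hlogδl
        _ = l * 1 := by ring
        _ ≤ l * (2 * l ^ 2 * β) := mul_le_mul_of_nonneg_left h2 hl0
        _ = 2 * l ^ 3 * β := by ring
    linarith
  refine ⟨q, ?_, ?_⟩
  · have h1 : (1 - β) ^ q ≤ Real.exp (-(β * q)) := by
      have := pow_le_pow_left₀ (by linarith) (Real.one_sub_le_exp_neg β) q
      rw [← Real.exp_nat_mul] at this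
      have e : (q : ℝ) * -β = -(β * q) := by ring
      rw [e] at this
      exact this
    have h2 : Real.exp (-(β * q)) ≤ 1 / δ := by
      have h3 : Real.log δ ≤ β * q := by
        rw [div_le_iff₀ hβ0] at hqge; linarith
      rw [Real.exp_neg, one_div]
      apply inv_anti₀ hδ0
      calc (δ : ℝ) = Real.exp (Real.log δ) := (Real.exp_log hδ0).symm
        _ ≤ _ := Real.exp_le_exp.2 h3
    calc (1 - β) ^ q * t ≤ 1 / δ * t := mul_le_mul_of_nonneg_right (h1.trans h2) ht0.le
      _ = t / δ := by ring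
      _ ≤ R := by rw [div_le_iff₀ hδ0]; linarith
  · -- the sum
    set E : ℝ := Real.exp (β * R) * (1 / β) ^ (δ + 1) with hE
    have hE0 : 0 ≤ E := by positivity
    have hterm : ∀ s ∈ range (q + 1),
        ((t.choose s * R.choose (δ + 1 - s) : ℕ) : ℝ) ≤ (t : ℝ) ^ q * E := by
      intro s hs
      have hs' : s ≤ q := by simpa [Nat.lt_succ_iff] using hs
      rw [Nat.cast_mul]
      have h1 : (t.choose s : ℝ) ≤ (t : ℝ) ^ q := by
        calc (t.choose s : ℝ) ≤ ((t ^ s : ℕ) : ℝ) := by exact_mod_cast Nat.choose_le_pow t s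
          _ = (t : ℝ) ^ s := by push_cast; ring
          _ ≤ (t : ℝ) ^ q := pow_le_pow_right₀ (by exact_mod_cast (by omega : 1 ≤ t)) hs'
      exact mul_le_mul h1 (choose_le_exp R _ _ β hβ0 hβ1 (Nat.sub_le _ _)) (by positivity)
        (by positivity)
    have hsum : ((∑ s ∈ range (q + 1), t.choose s * R.choose (δ + 1 - s) : ℕ) : ℝ) ≤
        (q + 1) * ((t : ℝ) ^ q * E) := by
      rw [Nat.cast_sum]
      calc _ ≤ ∑ _s ∈ range (q + 1), (t : ℝ) ^ q * E := Finset.sum_le_sum hterm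
        _ = _ := by rw [Finset.sum_const, card_range, nsmul_eq_mul]; push_cast; ring
    have hq2 : ((q : ℝ) + 1) ≤ (t : ℝ) ^ q := by
      have h1 : q + 1 ≤ t ^ q := by
        have := Nat.lt_two_pow_self (n := q)
        have h2 : 2 ^ q ≤ t ^ q := Nat.pow_le_pow_left ht q
        omega
      exact_mod_cast h1
    have htq : (t : ℝ) ^ q = Real.exp (q * l) := by
      rw [hldef, Real.exp_nat_mul, Real.exp_log ht0]
    have hEb : E ≤ Real.exp (10 * s0) := E_bound t δ R ht hδ hδ2 hR2'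
    calc _ ≤ (q + 1) * ((t : ℝ) ^ q * E) := hsum
      _ ≤ Real.exp (q * l) * (Real.exp (q * l) * Real.exp (10 * s0)) := by
          rw [← htq]
          apply mul_le_mul hq2 _ (by positivity) (by positivity)
          exact mul_le_mul_of_nonneg_left hEb (by positivity)
      _ = Real.exp (2 * (q * l) + 10 * s0) := by
          rw [← Real.exp_add, ← Real.exp_add]; congr 1; ring
      _ ≤ _ := by
          apply Real.exp_le_exp.2
          have : (q : ℝ) * l ≤ 2 * l ^ 4 + l := by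
            calc (q : ℝ) * l ≤ (2 * l ^ 3 + 1) * l := mul_le_mul_of_nonneg_right hq3 hl0
              _ = _ := by ring
          linarith

/-- Sets of size `d` in `nbhds G T`. -/
theorem size_bound (h1 : StA1) (h2 : StA2) (V : Type) [Fintype V] [DecidableEq V]
    (G : SimpleGraph V) [DecidableRel G.Adj] (hG : C4Free G) (T : Finset V)
    (hT : ∀ x y, G.Adj x y → x ∈ T) (d : ℕ) (F : Finset (Finset V))
    (hF : ∀ I ∈ F, I ⊆ T ∧ I.card = d ∧
      (∀ x ∈ T, I.card ≤ (univ.filter (fun y => G.Adj x y)).card + 1) ∧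
      ∀ x ∈ I, ∀ y ∈ I, x ≠ y → ¬ ∃ w, G.Adj w x ∧ G.Adj w y) (ht : 2 ≤ T.card) :
    (F.card : ℝ) ≤ Real.exp (16400 * Real.sqrt T.card) := by
  classical
  set t := T.card with htdef
  have ht0 : (0 : ℝ) < t := by positivity
  obtain ⟨hl0, hl2, -⟩ := log_bounds t ht
  have h2t : (0 : ℝ) < 2 * t := by linarith
  have hs0 : 0 < Real.sqrt t := Real.sqrt_pos.2 ht0
  have hsub : F ⊆ T.powersetCard d := fun I hI =>
    mem_powersetCard.2 ⟨(hF I hI).1, (hF I hI).2.1⟩
  have hcard : (F.card : ℝ) ≤ Real.exp (d * Real.log t) := by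
    rw [Real.exp_nat_mul, Real.exp_log ht0]
    calc (F.card : ℝ) ≤ ((t.choose d : ℕ) : ℝ) := by
          exact_mod_cast (card_le_card hsub).trans (le_of_eq (card_powersetCard d T))
      _ ≤ ((t ^ d : ℕ) : ℝ) := by exact_mod_cast Nat.choose_le_pow t d
      _ = _ := by push_cast; ring
  rcases F.eq_empty_or_nonempty with rfl | ⟨I0, hI0⟩
  · simp only [card_empty, Nat.cast_zero]; exact (Real.exp_pos _).le
  obtain ⟨hI0T, hI0d, hI0deg, -⟩ := hF I0 hI0
  have hdt : d ≤ t := by rw [← hI0d]; exact card_le_card hI0T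
  by_cases hsmall : ((d - 1 : ℕ) : ℝ) * Real.log t ≤ Real.sqrt t
  · refine hcard.trans (Real.exp_le_exp.2 ?_)
    have h3 : (d : ℝ) ≤ ((d - 1 : ℕ) : ℝ) + 1 := by exact_mod_cast (by omega : d ≤ d - 1 + 1)
    have h4 : (d : ℝ) * Real.log t ≤ (((d - 1 : ℕ) : ℝ) + 1) * Real.log t :=
      mul_le_mul_of_nonneg_right h3 hl0
    linarith
  push Not at hsmall
  obtain ⟨δ, hδ⟩ : ∃ δ, δ = d - 1 := ⟨_, rfl⟩
  rw [← hδ] at hsmall
  have hδ1 : 1 ≤ δ := by
    rcases Nat.eq_zero_or_pos δ with h | h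
    · rw [h] at hsmall; simp only [Nat.cast_zero, zero_mul] at hsmall; linarith
    · exact h
  have hdδ : d = δ + 1 := by omega
  have hdeg : ∀ x ∈ T, δ ≤ (univ.filter (fun y => G.Adj x y)).card := by
    intro x hx
    have := hI0deg x hx
    omega
  have hdens := h2 V G hG T hT δ hδ1 hdeg
  have hTne : T.Nonempty := card_pos.1 (by omega)
  have hδ2 : δ ^ 2 ≤ 2 * t := by
    by_cases h2δ : 2 ≤ δ
    · obtain ⟨x, -, hx⟩ := hdens T (Subset.refl T) (Nat.mul_le_mul_right _ h2δ) hTne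
      have h5 : ((T.filter (fun y => x ≠ y ∧ ∃ w, G.Adj w x ∧ G.Adj w y)).card : ℝ) ≤ t := by
        exact_mod_cast card_filter_le _ _
      have h6 : (δ : ℝ) ^ 2 / (2 * t) * t ≤ t := hx.trans h5
      have h7 : (δ : ℝ) ^ 2 ≤ 2 * t := by
        rw [div_mul_eq_mul_div, div_le_iff₀ h2t] at h6
        nlinarith
      exact_mod_cast h7
    · have : δ = 1 := by omega
      rw [this]; omega
  obtain ⟨q, hq, hsum⟩ := num t δ ht hδ1 hδ2 (by omega) hsmall
  have h8 := h1 V (fun x y => x ≠ y ∧ ∃ w, G.Adj w x ∧ G.Adj w y)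
    (fun x y hxy => ⟨hxy.1.symm, hxy.2.imp fun w hw => ⟨hw.2, hw.1⟩⟩)
    ((δ : ℝ) ^ 2 / (2 * t)) (2 * t / δ) (div_nonneg (sq_nonneg _) h2t.le)
    (by rw [div_le_one h2t]; exact_mod_cast hδ2) T
    (by
      intro B' hB' hRB
      have h9 : 2 * t ≤ δ * B'.card := by
        have := (Nat.div_lt_iff_lt_mul hδ1).1 hRB
        rw [mul_comm δ]; omega
      have hne : B'.Nonempty := card_pos.1 ((Nat.zero_le _).trans_lt hRB)
      exact hdens B' hB' h9 hne) q d hq
  have h10 : F.card ≤ ∑ s ∈ range (q + 1), t.choose s * (2 * t / δ).choose (δ + 1 - s) := by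
    rw [← hdδ]
    refine le_trans (card_le_card ?_) h8
    intro I hI
    simp only [mem_filter]
    refine ⟨hsub hI, ?_⟩
    intro x hx y hy hxy hh
    exact (hF I hI).2.2.2 x hx y hy hxy hh.2
  calc (F.card : ℝ) ≤ ((∑ s ∈ range (q + 1),
        t.choose s * (2 * t / δ).choose (δ + 1 - s) : ℕ) : ℝ) := by exact_mod_cast h10
    _ ≤ _ := hsum

theorem rowA (h1 : StA1) (h2 : StA2) : StA := by
  classical
  refine ⟨16402, by norm_num, ?_⟩
  intro V _ G hG T hT
  let _ : Fintype V := Fintype.ofFinite V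
  rw [← Real.sqrt_eq_rpow]
  set F : Finset (Finset V) := T.powerset.filter (fun I => I ∈ nbhds G T) with hF
  have hcard : (nbhds G T).ncard = F.card := by
    rw [← Set.ncard_coe_finset]
    congr 1
    ext I
    simp only [hF, coe_filter, mem_powerset, Set.mem_ofPred_eq]
    exact ⟨fun h => ⟨h.1, h⟩, fun h => h.2⟩
  rw [hcard]
  by_cases ht : 2 ≤ T.card
  · have hmaps : ∀ I ∈ F, I.card ∈ range (T.card + 1) := by
      intro I hI
      rw [mem_range, Nat.lt_succ_iff]
      exact card_le_card (mem_powerset.1 (mem_filter.1 hI).1)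
    have hsum := card_eq_sum_card_fiberwise (f := fun I : Finset V => I.card)
      (s := F) (t := range (T.card + 1)) hmaps
    have hs0 : 0 ≤ Real.sqrt T.card := Real.sqrt_nonneg _
    have hssq : Real.sqrt T.card ^ 2 = T.card := Real.sq_sqrt (by positivity)
    calc (F.card : ℝ) = ∑ d ∈ range (T.card + 1), ((F.filter (fun I => I.card = d)).card : ℝ) := by
          rw [hsum]; push_cast; rfl
      _ ≤ ∑ _d ∈ range (T.card + 1), Real.exp (16400 * Real.sqrt T.card) := by
          apply sum_le_sum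
          intro d _
          apply size_bound h1 h2 V G hG T hT d _ _ ht
          intro I hI
          obtain ⟨hI1, hI2⟩ := mem_filter.1 hI
          obtain ⟨-, hIT, hIdeg, hIind⟩ := mem_filter.1 hI1
          refine ⟨hIT, hI2, ?_, hIind⟩
          intro x hx
          have := hIdeg x hx
          rwa [Set.ncard_eq_toFinset_card', Set.toFinset_ofPred] at this
      _ = (T.card + 1) * Real.exp (16400 * Real.sqrt T.card) := by
          rw [sum_const, card_range, nsmul_eq_mul]; push_cast; ring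
      _ ≤ Real.exp (2 * Real.sqrt T.card) * Real.exp (16400 * Real.sqrt T.card) := by
          apply mul_le_mul_of_nonneg_right _ (Real.exp_pos _).le
          have h3 := Real.add_one_le_exp (Real.sqrt T.card)
          have h4 := pow_le_pow_left₀ (by positivity) h3 2
          rw [← Real.exp_nat_mul] at h4
          push_cast at h4
          nlinarith
      _ = _ := by rw [← Real.exp_add]; congr 1; ring
  · have hF2 : F.card ≤ 2 ^ T.card := by
      rw [← card_powerset]; exact card_filter_le _ _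
    have : T.card = 0 ∨ T.card = 1 := by omega
    rcases this with h | h
    · rw [h] at hF2 ⊢
      simp only [pow_zero] at hF2
      simp only [Nat.cast_zero, Real.sqrt_zero, mul_zero, Real.exp_zero]
      exact_mod_cast hF2
    · rw [h] at hF2 ⊢
      simp only [pow_one] at hF2
      have h2 : (F.card : ℝ) ≤ 2 := by exact_mod_cast hF2
      have h3 := Real.add_one_le_exp (16402 : ℝ)
      simp only [Nat.cast_one, Real.sqrt_one, mul_one]
      linarith

end Vale.Agent.P183.R2.H764
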